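import Mathlib
import Vale.Agent.P002.Main

/-!
# P002 (partial): potential density of integral points for abelian fundamental groups

Let `Γ` be a finitely generated abelian group (for instance the fundamental group of a complex
variety, when that group is abelian), `r ≥ 1`, `γ 1, …, γ s ∈ Γ` (the meridians) and `C 1, …, C s`
quasi-unipotent conjugacy classes of `SL_r(ℂ)`. There is one number field `L` such that every
regular function on the character variety which vanishes at all semisimple `ρ : Γ → SL_r(𝓞_L)`
with `ρ (γ i) ∈ C i` vanishes at all semisimple `ρ : Γ → SL_r(ℂ)` with `ρ (γ i) ∈ C i`.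
-/

namespace Vale.Agent.Results.P002.AbelianFundamentalGroup

open Vale.Agent.P002 Matrix

theorem result :
    ∀ (Γ : Type) [CommGroup Γ] [Group.FG Γ] (r s : ℕ), 0 < r →
      ∀ (γ : Fin s → Γ) (C : Fin s → ConjClasses (SpecialLinearGroup (Fin r) ℂ)),
      (∀ i A, ConjClasses.mk A = C i → QuasiUnipotent A) →
      ∃ L : IntermediateField ℚ ℂ, FiniteDimensional ℚ L ∧
        ∀ (n : ℕ) (g : Fin n → Γ) (f : MvPolynomial (Fin n × Fin r × Fin r) ℂ), Invariant g f →
          (∀ ρ : Γ →* SpecialLinearGroup (Fin r) ℂ, InY γ C ρ → Integral L ρ → val g f ρ = 0) →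
          ∀ ρ : Γ →* SpecialLinearGroup (Fin r) ℂ, InY γ C ρ → val g f ρ = 0 :=
  fun Γ _ _ r s hr γ C hC => main Γ r s hr γ C hC

end Vale.Agent.Results.P002.AbelianFundamentalGroup
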